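import Vale.Agent.P162.H372.Mult

/-!
# P162, stage 2, part D: eigenvalues on a two-sided ideal and the trace of `Q^R P_E`
-/

open Finset
open scoped InnerProductSpace
open Vale.Agent.P162 (conv)
open Vale.Agent.P162.H72 (reg reg_apply norm_reg opr)

namespace Vale.Agent.P162.H372

/-! ### A rank inequality -/

/-- If each value `u` has at most `C / u` values above it, then `∑ u² ≤ 2 C²`. -/
theorem sum_sq_le_aux {ι : Type*} [DecidableEq ι] (u : ι → ℝ) {C : ℝ}
    (n : ℕ) : ∀ S : Finset ι, S.card = n → (∀ i ∈ S, 0 ≤ u i) →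
      (∀ i ∈ S, u i * ((S.filter fun j => u i ≤ u j).card : ℝ) ≤ C) →
      ∑ i ∈ S, u i ^ 2 ≤ C ^ 2 * ∑ j ∈ range n, 1 / ((j : ℝ) + 1) ^ 2 := by
  induction n with
  | zero =>
    intro S hS _ _
    rw [card_eq_zero] at hS
    subst hS
    simp
  | succ n ih =>
    intro S hS h0 h
    have hne : S.Nonempty := by rw [← card_pos, hS]; omega
    obtain ⟨a, haS, ha⟩ := S.exists_min_image u hne
    have h1 : (S.filter fun j => u a ≤ u j) = S := Finset.filter_true_of_mem fun j hj => ha j hj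
    have h2 : u a ≤ C / ((n : ℝ) + 1) := by
      have := h a haS
      rw [h1, hS] at this
      rw [le_div_iff₀ (by positivity)]
      exact_mod_cast this
    have h3 : u a ^ 2 ≤ C ^ 2 * (1 / ((n : ℝ) + 1) ^ 2) := by
      calc u a ^ 2 ≤ (C / ((n : ℝ) + 1)) ^ 2 := pow_le_pow_left₀ (h0 a haS) h2 2
        _ = _ := by rw [div_pow]; ring
    have h4 := ih (S.erase a) (by rw [card_erase_of_mem haS, hS]; rfl)
      (fun i hi => h0 i (mem_of_mem_erase hi)) (fun i hi => by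
        refine le_trans ?_ (h i (mem_of_mem_erase hi))
        refine mul_le_mul_of_nonneg_left ?_ (h0 i (mem_of_mem_erase hi))
        exact_mod_cast card_le_card (filter_subset_filter _ (erase_subset _ _)))
    rw [← add_sum_erase S _ haS, sum_range_succ, mul_add]
    linarith

theorem sum_inv_sq_le (n : ℕ) : ∑ j ∈ range n, 1 / ((j : ℝ) + 1) ^ 2 ≤ 2 := by
  have h : ∀ n : ℕ, ∑ j ∈ range (n + 1), 1 / ((j : ℝ) + 1) ^ 2 ≤ 2 - 1 / ((n : ℝ) + 1) := by
    intro n
    induction n with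
    | zero => norm_num
    | succ n ih =>
      rw [sum_range_succ]
      have h1 : 1 / (((n + 1 : ℕ) : ℝ) + 1) ^ 2 ≤ 1 / ((n : ℝ) + 1) - 1 / (((n + 1 : ℕ) : ℝ) + 1) := by
        push_cast
        have h2 : 1 / ((n : ℝ) + 1) - 1 / ((n : ℝ) + 1 + 1) =
            1 / (((n : ℝ) + 1) * ((n : ℝ) + 1 + 1)) := by
          field_simp
          ring
        rw [h2]
        apply one_div_le_one_div_of_le
        · positivity
        · nlinarith
      linarith
  rcases n with _ | n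
  · simp
  · exact (h n).trans (by
      have : (0 : ℝ) ≤ 1 / ((n : ℝ) + 1) := by positivity
      linarith)

theorem sum_sq_le {ι : Type*} [Fintype ι] [DecidableEq ι] (u : ι → ℝ) {C : ℝ}
    (h0 : ∀ i, 0 ≤ u i)
    (h : ∀ i, u i * ((univ.filter fun j => u i ≤ u j).card : ℝ) ≤ C) :
    ∑ i, u i ^ 2 ≤ 2 * C ^ 2 := by
  have h1 := sum_sq_le_aux u _ univ rfl (fun i _ => h0 i) (fun i _ => h i)
  refine h1.trans ?_
  have := mul_le_mul_of_nonneg_left (sum_inv_sq_le (univ : Finset ι).card) (sq_nonneg C)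
  linarith

/-! ### Spectral subspaces -/

variable {G : Type*} [Group G] [Fintype G] {q : G → ℝ} {E : Submodule ℝ (EuclideanSpace ℝ G)}

/-- `Q` as an operator on `E`. -/
noncomputable def res (hE : TwoSided E) (q : G → ℝ) : E →ₗ[ℝ] E :=
  (opr q : EuclideanSpace ℝ G →ₗ[ℝ] EuclideanSpace ℝ G).restrict fun f hf => opr_mem hE q f hf

theorem coe_res (hE : TwoSided E) (f : E) : ((res hE q f : E) : EuclideanSpace ℝ G) = opr q f :=
  rfl

theorem res_symm (hq : Cls q) (hE : TwoSided E) : (res hE q).IsSymmetric := fun f f' => by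
  rw [Submodule.coe_inner, Submodule.coe_inner, coe_res, coe_res, opr_symm hq]

/-- The eigenvalues of `Q` on `E`. -/
noncomputable def ev (hq : Cls q) (hE : TwoSided E) : Fin (Module.finrank ℝ E) → ℝ :=
  (res_symm hq hE).eigenvalues rfl

/-- The eigenvectors of `Q` on `E`. -/
noncomputable def eb (hq : Cls q) (hE : TwoSided E) :
    OrthonormalBasis (Fin (Module.finrank ℝ E)) ℝ E :=
  (res_symm hq hE).eigenvectorBasis rfl

theorem opr_eb (hq : Cls q) (hE : TwoSided E) (i : Fin (Module.finrank ℝ E)) :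
    opr q (eb hq hE i : EuclideanSpace ℝ G) = ev hq hE i • (eb hq hE i : EuclideanSpace ℝ G) := by
  have h := (res_symm hq hE).apply_eigenvectorBasis rfl i
  have h1 := congrArg (Subtype.val) h
  exact h1

/-- The span of the eigenvectors with eigenvalue at least `s`. -/
noncomputable def spc (hq : Cls q) (hE : TwoSided E) (s : ℝ) :
    Submodule ℝ (EuclideanSpace ℝ G) :=
  Submodule.span ℝ (Set.range fun i : {i // s ≤ ev hq hE i} => (eb hq hE i : EuclideanSpace ℝ G))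

theorem eb_mem_spc (hq : Cls q) (hE : TwoSided E) {s : ℝ} {i : Fin (Module.finrank ℝ E)}
    (hi : s ≤ ev hq hE i) : (eb hq hE i : EuclideanSpace ℝ G) ∈ spc hq hE s :=
  Submodule.subset_span ⟨⟨i, hi⟩, rfl⟩

theorem inner_eb_spc (hq : Cls q) (hE : TwoSided E) {s : ℝ} {i : Fin (Module.finrank ℝ E)}
    (hi : ¬ s ≤ ev hq hE i) {f : EuclideanSpace ℝ G} (hf : f ∈ spc hq hE s) :
    ⟪(eb hq hE i : EuclideanSpace ℝ G), f⟫_ℝ = 0 := by
  induction hf using Submodule.span_induction with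
  | mem x hx =>
    obtain ⟨⟨j, hj⟩, rfl⟩ := hx
    have hij : i ≠ j := by rintro rfl; exact hi hj
    exact (eb hq hE).orthonormal.2 hij
  | zero => simp
  | add x y _ _ hx hy => rw [inner_add_right, hx, hy, add_zero]
  | smul c x _ hx => rw [inner_smul_right, hx, mul_zero]

theorem spc_le (hq : Cls q) (hE : TwoSided E) (s : ℝ) : spc hq hE s ≤ E := by
  refine Submodule.span_le.2 ?_
  rintro _ ⟨i, rfl⟩
  exact (eb hq hE i).2

/-- Expansion of an element of `E`. -/
theorem eq_sum_eb (hq : Cls q) (hE : TwoSided E) {f : EuclideanSpace ℝ G} (hf : f ∈ E) :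
    f = ∑ i, ⟪(eb hq hE i : EuclideanSpace ℝ G), f⟫_ℝ • (eb hq hE i : EuclideanSpace ℝ G) := by
  have h := (eb hq hE).sum_repr' ⟨f, hf⟩
  have h1 : (((∑ i, ⟪eb hq hE i, (⟨f, hf⟩ : E)⟫_ℝ • eb hq hE i : E)) : EuclideanSpace ℝ G) = f :=
    congrArg Subtype.val h
  rw [Submodule.coe_sum] at h1
  exact h1.symm

theorem norm_sq_eb (hq : Cls q) (hE : TwoSided E) {f : EuclideanSpace ℝ G} (hf : f ∈ E) :
    ‖f‖ ^ 2 = ∑ i, ⟪(eb hq hE i : EuclideanSpace ℝ G), f⟫_ℝ ^ 2 := by
  have h := (eb hq hE).sum_sq_norm_inner_right ⟨f, hf⟩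
  have h1 : ‖(⟨f, hf⟩ : E)‖ = ‖f‖ := rfl
  rw [h1] at h
  rw [← h]
  refine sum_congr rfl fun i _ => ?_
  rw [Real.norm_eq_abs, sq_abs]
  rfl

theorem map_eb_mem (hq : Cls q) (hE : TwoSided E) {s : ℝ} (A : EuclideanSpace ℝ G →L[ℝ]
    EuclideanSpace ℝ G) (hA : ∀ f ∈ E, A f ∈ E) (hAQ : ∀ f, opr q (A f) = A (opr q f))
    {f : EuclideanSpace ℝ G} (hf : f ∈ spc hq hE s) : A f ∈ spc hq hE s := by
  induction hf using Submodule.span_induction with
  | mem x hx =>
    obtain ⟨⟨j, hj⟩, rfl⟩ := hx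
    simp only
    have h1 := eq_sum_eb hq hE (hA _ (eb hq hE j).2)
    rw [h1]
    refine Submodule.sum_mem _ fun i _ => ?_
    by_cases hij : ev hq hE i = ev hq hE j
    · exact Submodule.smul_mem _ _ (eb_mem_spc hq hE (by rw [hij]; exact hj))
    · have h2 : ⟪(eb hq hE i : EuclideanSpace ℝ G), A (eb hq hE j)⟫_ℝ = 0 := by
        have h3 : ev hq hE i * ⟪(eb hq hE i : EuclideanSpace ℝ G), A (eb hq hE j)⟫_ℝ =
            ev hq hE j * ⟪(eb hq hE i : EuclideanSpace ℝ G), A (eb hq hE j)⟫_ℝ := by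
          have h4 := opr_symm hq (eb hq hE i : EuclideanSpace ℝ G) (A (eb hq hE j))
          rw [hAQ, opr_eb, opr_eb, map_smul, inner_smul_left, inner_smul_right] at h4
          simpa using h4
        have h5 : (ev hq hE i - ev hq hE j) *
            ⟪(eb hq hE i : EuclideanSpace ℝ G), A (eb hq hE j)⟫_ℝ = 0 := by linarith
        exact (mul_eq_zero.1 h5).resolve_left (sub_ne_zero.2 hij)
      rw [h2, zero_smul]
      exact Submodule.zero_mem _
  | zero => simp
  | add x y _ _ hx hy => rw [map_add]; exact Submodule.add_mem _ hx hy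
  | smul c x _ hx => rw [map_smul]; exact Submodule.smul_mem _ _ hx

theorem spc_twoSided (hq : Cls q) (hE : TwoSided E) (s : ℝ) : TwoSided (spc hq hE s) where
  left g _ hf := map_eb_mem hq hE (reg G g) (hE.left g) (opr_reg hq g) hf
  right g _ hf := map_eb_mem hq hE (rt g) (hE.right g) (opr_rt q g) hf

theorem norm_spc (hq : Cls q) (hE : TwoSided E) {s : ℝ} (hs : 0 ≤ s) {f : EuclideanSpace ℝ G}
    (hf : f ∈ spc hq hE s) : s * ‖f‖ ≤ ‖opr q f‖ := by
  have hfE := spc_le hq hE s hf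
  have h1 := norm_sq_eb hq hE hfE
  have h2 := norm_sq_eb hq hE (opr_mem hE q f hfE)
  have h3 : (s * ‖f‖) ^ 2 ≤ ‖opr q f‖ ^ 2 := by
    rw [mul_pow, h1, h2, mul_sum]
    refine sum_le_sum fun i _ => ?_
    have h4 : ⟪(eb hq hE i : EuclideanSpace ℝ G), opr q f⟫_ℝ =
        ev hq hE i * ⟪(eb hq hE i : EuclideanSpace ℝ G), f⟫_ℝ := by
      rw [← opr_symm hq, opr_eb, inner_smul_left]
      simp
    by_cases hi : s ≤ ev hq hE i
    · rw [h4, mul_pow]
      exact mul_le_mul_of_nonneg_right (pow_le_pow_left₀ hs hi 2) (sq_nonneg _)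
    · rw [inner_eb_spc hq hE hi hf]
      simp [sq_nonneg]
  exact (abs_le_of_sq_le_sq' h3 (norm_nonneg _)).2

theorem card_le_finrank_spc (hq : Cls q) (hE : TwoSided E) (s : ℝ) :
    (univ.filter fun i => s ≤ ev hq hE i).card ≤ Module.finrank ℝ (spc hq hE s) := by
  have h1 : LinearIndependent ℝ
      (fun i : {i // s ≤ ev hq hE i} => (eb hq hE i : EuclideanSpace ℝ G)) := by
    have h2 : LinearIndependent ℝ (fun i => (eb hq hE i : EuclideanSpace ℝ G)) := by
      have := (eb hq hE).toBasis.linearIndependent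
      have h3 := this.map' E.subtype (by simp)
      simpa [Function.comp_def] using h3
    exact h2.comp _ Subtype.val_injective
  have h3 := finrank_span_eq_card h1
  rw [spc, h3, Fintype.card_subtype]

/-- Part (D), final form: the trace of `Q^R` on a two-sided ideal. -/
theorem trace_pow_le [DecidableEq G] (hq : Cls q) (hE : TwoSided E)
    (hpos : ∀ f, 0 ≤ ⟪opr q f, f⟫_ℝ) {M : ℝ} (hM : ∀ f ∈ E, ⟪opr q f, f⟫_ℝ ≤ M * ‖f‖ ^ 2)
    {κ : ℝ} (hκ : 0 < κ) (hκ2 : κ ≤ 1 / 2) {w : G → ℝ} (hw0 : ∀ h, 0 ≤ w h)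
    (hw : ∀ h, (cent h : ℝ) ^ κ ≤ w h)
    {R : ℕ} (hR : 4 / κ ≤ R) (hM0 : 0 ≤ M) :
    LinearMap.trace ℝ (EuclideanSpace ℝ G)
      (((opr q ^ R) ∘L E.starProjection : EuclideanSpace ℝ G →L[ℝ] EuclideanSpace ℝ G) :
        EuclideanSpace ℝ G →ₗ[ℝ] EuclideanSpace ℝ G) ≤
      2 * M ^ ((R : ℝ) - 4 / κ) * (∑ h, conv q q h * w h) ^ (2 / κ) := by
  classical
  set Z : ℝ := ∑ h, conv q q h * w h with hZ
  have hZ0 : 0 ≤ Z := sum_nonneg fun h _ => mul_nonneg (conv_nonneg hq h) (hw0 h)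
  have hb1 : ∀ i, ‖(eb hq hE i : EuclideanSpace ℝ G)‖ = 1 := fun i => (eb hq hE).orthonormal.1 i
  have hev : ∀ i, ev hq hE i = ⟪opr q (eb hq hE i : EuclideanSpace ℝ G),
      (eb hq hE i : EuclideanSpace ℝ G)⟫_ℝ := by
    intro i
    rw [opr_eb, inner_smul_left, real_inner_self_eq_norm_sq, hb1]
    simp
  have h0 : ∀ i, 0 ≤ ev hq hE i := fun i => by rw [hev]; exact hpos _
  have h1 : ∀ i, ev hq hE i ≤ M := fun i => by
    rw [hev]
    have := hM _ (eb hq hE i).2
    rwa [hb1, one_pow, mul_one] at this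
  have h2 : ∀ i, ∀ R : ℕ, (opr q ^ R) (eb hq hE i : EuclideanSpace ℝ G) =
      ev hq hE i ^ R • (eb hq hE i : EuclideanSpace ℝ G) := by
    intro i R
    induction R with
    | zero => simp
    | succ R ih =>
      rw [pow_succ]
      show (opr q ^ R) (opr q (eb hq hE i)) = _
      rw [opr_eb, map_smul, ih, smul_smul, pow_succ, mul_comm]
  rw [trace_comp_proj E (eb hq hE) (opr q ^ R)]
  have h3 : ∀ i, ⟪(eb hq hE i : EuclideanSpace ℝ G), (opr q ^ R) (eb hq hE i)⟫_ℝ =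
      ev hq hE i ^ R := by
    intro i
    rw [h2, inner_smul_right, real_inner_self_eq_norm_sq, hb1]
    simp
  rw [sum_congr rfl fun i _ => h3 i]
  have hκ4 : 0 ≤ 4 / κ := by positivity
  have h4 : ∀ i, ev hq hE i ^ R ≤
      M ^ ((R : ℝ) - 4 / κ) * (ev hq hE i ^ (2 / κ)) ^ 2 := by
    intro i
    calc ev hq hE i ^ R = ev hq hE i ^ (((R : ℝ) - 4 / κ) + 4 / κ) := by
          rw [sub_add_cancel, Real.rpow_natCast]
      _ = ev hq hE i ^ ((R : ℝ) - 4 / κ) * (ev hq hE i ^ (2 / κ)) ^ 2 := by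
          rw [Real.rpow_add_of_nonneg (h0 i) (by linarith) hκ4, ← Real.rpow_natCast,
            ← Real.rpow_mul (h0 i)]
          congr 2
          push_cast
          ring
      _ ≤ _ := mul_le_mul_of_nonneg_right (Real.rpow_le_rpow (h0 i) (h1 i) (by linarith))
          (sq_nonneg _)
  refine (sum_le_sum fun i _ => h4 i).trans ?_
  rw [← mul_sum]
  have h5 := sum_sq_le (fun i => ev hq hE i ^ (2 / κ)) (C := Z ^ (1 / κ))
    (fun i => Real.rpow_nonneg (h0 i) _) (fun i => by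
    have h6 := mult_le hq (spc_twoSided hq hE (ev hq hE i)) (h0 i)
      (fun f hf => norm_spc hq hE (h0 i) hf) hκ hκ2 hw0 hw
    refine le_trans (mul_le_mul_of_nonneg_left ?_ (Real.rpow_nonneg (h0 i) _)) h6
    have h7 := card_le_finrank_spc hq hE (ev hq hE i)
    refine le_trans ?_ (Nat.cast_le.2 h7)
    refine Nat.cast_le.2 (card_le_card fun j hj => ?_)
    rw [mem_filter] at hj ⊢
    refine ⟨mem_univ _, ?_⟩
    by_contra hlt
    rw [not_le] at hlt
    exact absurd hj.2 (not_le.2 (Real.rpow_lt_rpow (h0 j) hlt (by positivity))))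
  calc M ^ ((R : ℝ) - 4 / κ) * ∑ i, (ev hq hE i ^ (2 / κ)) ^ 2
      ≤ M ^ ((R : ℝ) - 4 / κ) * (2 * (Z ^ (1 / κ)) ^ 2) :=
        mul_le_mul_of_nonneg_left h5 (Real.rpow_nonneg hM0 _)
    _ = 2 * M ^ ((R : ℝ) - 4 / κ) * Z ^ (2 / κ) := by
        rw [← Real.rpow_natCast, ← Real.rpow_mul hZ0]
        have : 1 / κ * ((2 : ℕ) : ℝ) = 2 / κ := by push_cast; ring
        rw [this]
        ring

end Vale.Agent.P162.H372
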