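import Vale.Agent.P162.S2.Iface
import Vale.Agent.P162.H372.Spec

/-!
# P162, stage 2: `PropD` of the interface
-/

open Finset Equiv
open scoped InnerProductSpace
open Vale.Agent.P162 (conv)
open Vale.Agent.P162.H72 (reg reg_apply norm_reg opr)

namespace Vale.Agent.P162.H372

section cycles
variable {α : Type*} [Fintype α] [DecidableEq α]

omit [Fintype α] [DecidableEq α] in
theorem zpow_inv {β : Type*} {σ : Perm α} {z : α → β} (hz : ∀ a, z (σ a) = z a) (i : ℤ) (a : α) :
    z ((σ ^ i) a) = z a := by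
  induction i using Int.induction_on with
  | zero => simp
  | succ i ih =>
    rw [add_comm, zpow_add, zpow_one, Perm.mul_apply, hz, ih]
  | pred i ih =>
    rw [← ih]
    have h := hz ((σ ^ (-(i : ℤ) - 1)) a)
    rw [← h, ← Perm.mul_apply, ← zpow_one_add]
    congr 3
    ring

/-- The colourings fixed by `σ` are the functions on the set of cycles. -/
noncomputable def colEquiv (β : Type*) (σ : Perm α) :
    {z : α → β // ∀ a, z (σ a) = z a} ≃ (Quotient (Perm.SameCycle.setoid σ) → β) where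
  toFun z := Quotient.lift z.1 fun a b (hab : σ.SameCycle a b) => by
    obtain ⟨i, rfl⟩ := hab
    exact (zpow_inv z.2 i a).symm
  invFun g := ⟨fun a => g (Quotient.mk _ a), fun a => by
    have h : (Quotient.mk (Perm.SameCycle.setoid σ) (σ a)) = Quotient.mk _ a := by
      apply Quotient.sound
      show σ.SameCycle (σ a) a
      exact (Perm.sameCycle_apply_left).2 (Perm.SameCycle.refl σ a)
    exact congrArg g h⟩
  left_inv z := by
    ext a
    rfl
  right_inv g := by
    funext x
    induction x using Quotient.inductionOn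
    rfl

/-- The number of cycles. -/
noncomputable def cyc (σ : Perm α) : ℕ := Nat.card (Quotient (Perm.SameCycle.setoid σ))

omit [DecidableEq α] in
theorem fixK_eq_pow (K : ℕ) (σ : Perm α) : S2.Abs.fixK K σ = K ^ cyc σ := by
  unfold S2.Abs.fixK
  rw [Nat.card_congr (colEquiv (Fin K) σ), Nat.card_fun, Nat.card_eq_fintype_card,
    Fintype.card_fin, cyc]

theorem cent_le (σ : Perm α) : cent σ ≤ Fintype.card α ^ cyc σ := by
  classical
  have h1 : Fintype.card α ^ cyc σ = Nat.card (Quotient (Perm.SameCycle.setoid σ) → α) := by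
    rw [Nat.card_fun, cyc, Nat.card_eq_fintype_card (α := α)]
  rw [h1, cent, ← Fintype.card_subtype, ← Nat.card_eq_fintype_card]
  apply Nat.card_le_card_of_injective
    (fun (x : {x : Perm α // x * σ = σ * x}) (c : Quotient (Perm.SameCycle.setoid σ)) =>
      x.1 c.out)
  intro x y hxy
  apply Subtype.ext
  ext a
  have h2 := congrFun hxy (Quotient.mk _ a)
  simp only at h2
  have h3 : σ.SameCycle (Quotient.mk (Perm.SameCycle.setoid σ) a).out a :=
    Quotient.exact (s := Perm.SameCycle.setoid σ) (Quotient.out_eq (Quotient.mk _ a))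
  obtain ⟨i, hi⟩ := h3
  have hx : ∀ b, x.1 ((σ ^ i) b) = (σ ^ i) (x.1 b) := fun b => by
    have h4 : Commute x.1 σ := x.2
    have h5 := (h4.zpow_right i).eq
    rw [← Perm.mul_apply, h5, Perm.mul_apply]
  have hy : ∀ b, y.1 ((σ ^ i) b) = (σ ^ i) (y.1 b) := fun b => by
    have h4 : Commute y.1 σ := y.2
    have h5 := (h4.zpow_right i).eq
    rw [← Perm.mul_apply, h5, Perm.mul_apply]
  rw [← hi, hx, hy, h2]

theorem cent_rpow_le {κ : ℝ} (hκ : 0 ≤ κ) (σ : Perm α) :
    (cent σ : ℝ) ^ κ ≤ S2.Abs.fixK ⌈(Fintype.card α : ℝ) ^ κ⌉₊ σ := by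
  have hN : (0 : ℝ) ≤ Fintype.card α := Nat.cast_nonneg _
  rw [fixK_eq_pow]
  push_cast
  calc (cent σ : ℝ) ^ κ ≤ ((Fintype.card α : ℝ) ^ cyc σ) ^ κ :=
        Real.rpow_le_rpow (Nat.cast_nonneg _) (by exact_mod_cast cent_le σ) hκ
    _ = ((Fintype.card α : ℝ) ^ κ) ^ cyc σ := by
        rw [← Real.rpow_natCast, ← Real.rpow_mul hN, mul_comm, Real.rpow_mul hN,
          Real.rpow_natCast]
    _ ≤ _ := pow_le_pow_left₀ (Real.rpow_nonneg hN _) (Nat.le_ceil _) _

end cycles

section bridge
variable {α : Type*} [Fintype α] [DecidableEq α]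

theorem coe_opr (q : Perm α → ℝ) :
    (opr q : EuclideanSpace ℝ (Perm α) →ₗ[ℝ] EuclideanSpace ℝ (Perm α)) = S2.Abs.op q := by
  ext f h
  rw [S2.Abs.op_apply, ← opr_apply']
  rfl

theorem coe_opr_pow (q : Perm α → ℝ) (R : ℕ) :
    ((opr q ^ R : EuclideanSpace ℝ (Perm α) →L[ℝ] EuclideanSpace ℝ (Perm α)) :
      EuclideanSpace ℝ (Perm α) →ₗ[ℝ] EuclideanSpace ℝ (Perm α)) = S2.Abs.op q ^ R := by
  induction R with
  | zero => rfl
  | succ R ih =>
    rw [pow_succ, pow_succ, ← ih, ← coe_opr]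
    rfl

theorem sum_conv_eq (q : Perm α → ℝ) (w : Perm α → ℝ) :
    ∑ h, conv q q h * w h = ∑ g, ∑ g', q g * q g' * w (g * g') := by
  unfold conv
  simp_rw [Finset.sum_mul]
  rw [Finset.sum_comm]
  refine Finset.sum_congr rfl fun g _ => ?_
  exact Fintype.sum_equiv (Equiv.mulLeft g⁻¹) _ _ fun h => by simp

end bridge

open S2.Abs in
/-- (D), the multiplicity bound in trace form. -/
theorem propD : PropD := by
  intro α _ _ q hq0 hqi hqc hpos κ M R E hκ hκ2 hM0 _ hR _ hl hr hM
  have hq : Cls q := ⟨hq0, hqi, hqc⟩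
  have hE : TwoSided E := by
    constructor
    · intro g f hf
      have : reg (Perm α) g f = lt g f := by
        ext h
        rw [reg_apply, lt_apply]
      rw [this]
      exact hl g f hf
    · intro g f hf
      have : H372.rt g f = S2.Abs.rt g f := by
        ext h
        rw [H372.rt_apply, S2.Abs.rt_apply]
      rw [this]
      exact hr g f hf
  have hop : ∀ f : FS α, opr q f = op q f := fun f => by
    rw [← coe_opr]
    rfl
  have h := trace_pow_le hq hE (fun f => by rw [hop]; exact hpos f)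
    (fun f hf => by rw [hop]; exact hM f hf) hκ hκ2
    (w := fun σ => (fixK ⌈(Fintype.card α : ℝ) ^ κ⌉₊ σ : ℝ)) (fun σ => Nat.cast_nonneg _)
    (fun σ => cent_rpow_le hκ.le σ) hR hM0
  rw [sum_conv_eq] at h
  unfold trOn ZK
  rw [← coe_opr_pow]
  exact h

end Vale.Agent.P162.H372
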