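import Vale.Agent.P162.H72.Law

/-!
# P162, stage 2, part D: two-sided ideals of the group algebra

For a finite group `G` and a subspace `E` of `ℓ²(G)` invariant under left and right translations,
the orthogonal projection onto `E` is the convolution with a class function `e`, and
`|G| e(1) = dim E`, `|G| |e(h)| ≤ min (dim E) (√(dim E · |C(h)|))`.
-/

open Finset
open scoped InnerProductSpace
open Vale.Agent.P162.H72 (reg reg_apply norm_reg opr)

namespace Vale.Agent.P162.H372

variable {G : Type*} [Group G] [Fintype G]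

/-- Right translation. -/
noncomputable def rt (g : G) : EuclideanSpace ℝ G →L[ℝ] EuclideanSpace ℝ G :=
  ((LinearIsometryEquiv.piLpCongrLeft 2 ℝ ℝ (Equiv.mulRight g⁻¹)).toContinuousLinearEquiv :
    EuclideanSpace ℝ G →L[ℝ] EuclideanSpace ℝ G)

theorem rt_apply (g : G) (f : EuclideanSpace ℝ G) (h : G) : rt g f h = f (h * g) := by
  simp [rt, LinearIsometryEquiv.piLpCongrLeft_apply, Equiv.piCongrLeft']

theorem norm_rt (g : G) (f : EuclideanSpace ℝ G) : ‖rt g f‖ = ‖f‖ :=
  (LinearIsometryEquiv.piLpCongrLeft 2 ℝ ℝ (Equiv.mulRight g⁻¹)).norm_map f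

/-- A subspace of `ℓ²(G)` invariant under all translations. -/
structure TwoSided (E : Submodule ℝ (EuclideanSpace ℝ G)) : Prop where
  left : ∀ g : G, ∀ f ∈ E, reg G g f ∈ E
  right : ∀ g : G, ∀ f ∈ E, rt g f ∈ E

theorem inner_reg (g : G) (f f' : EuclideanSpace ℝ G) :
    ⟪reg G g f, f'⟫_ℝ = ⟪f, reg G g⁻¹ f'⟫_ℝ := by
  rw [PiLp.inner_apply, PiLp.inner_apply]
  refine Fintype.sum_equiv (Equiv.mulLeft g⁻¹) _ _ fun x => ?_
  simp [reg_apply]

theorem inner_rt (g : G) (f f' : EuclideanSpace ℝ G) :
    ⟪rt g f, f'⟫_ℝ = ⟪f, rt g⁻¹ f'⟫_ℝ := by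
  rw [PiLp.inner_apply, PiLp.inner_apply]
  refine Fintype.sum_equiv (Equiv.mulRight g) _ _ fun x => ?_
  simp [rt_apply]

section proj
variable {V : Type*} [NormedAddCommGroup V] [InnerProductSpace ℝ V] [FiniteDimensional ℝ V]

/-- The orthogonal projection commutes with an operator preserving `E` whose adjoint does. -/
theorem proj_comm (E : Submodule ℝ V) (A B : V →L[ℝ] V) (hA : ∀ f ∈ E, A f ∈ E)
    (hB : ∀ f ∈ E, B f ∈ E) (h : ∀ f f', ⟪A f, f'⟫_ℝ = ⟪f, B f'⟫_ℝ) (f : V) :
    E.starProjection (A f) = A (E.starProjection f) := by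
  apply Submodule.eq_starProjection_of_mem_orthogonal
  · exact hA _ (Submodule.starProjection_apply_mem E f)
  · rw [← map_sub, Submodule.mem_orthogonal]
    intro u hu
    rw [real_inner_comm, h, real_inner_comm]
    exact (Submodule.mem_orthogonal E _).1 (Submodule.sub_starProjection_mem_orthogonal f) _
      (hB u hu)

end proj

variable {E : Submodule ℝ (EuclideanSpace ℝ G)}

theorem proj_reg (hE : TwoSided E) (g : G) (f : EuclideanSpace ℝ G) :
    E.starProjection (reg G g f) = reg G g (E.starProjection f) :=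
  proj_comm E _ (reg G g⁻¹) (hE.left g) (hE.left g⁻¹) (inner_reg g) f

theorem proj_rt (hE : TwoSided E) (g : G) (f : EuclideanSpace ℝ G) :
    E.starProjection (rt g f) = rt g (E.starProjection f) :=
  proj_comm E _ (rt g⁻¹) (hE.right g) (hE.right g⁻¹) (inner_rt g) f

theorem TwoSided.orthogonal (hE : TwoSided E) : TwoSided Eᗮ where
  left g f hf := by
    rw [Submodule.mem_orthogonal] at hf ⊢
    intro u hu
    rw [real_inner_comm, inner_reg, real_inner_comm]
    exact hf _ (hE.left _ _ hu)
  right g f hf := by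
    rw [Submodule.mem_orthogonal] at hf ⊢
    intro u hu
    rw [real_inner_comm, inner_rt, real_inner_comm]
    exact hf _ (hE.right _ _ hu)

theorem TwoSided.inf {E F : Submodule ℝ (EuclideanSpace ℝ G)} (hE : TwoSided E)
    (hF : TwoSided F) : TwoSided (E ⊓ F) where
  left g f hf := ⟨hE.left g f hf.1, hF.left g f hf.2⟩
  right g f hf := ⟨hE.right g f hf.1, hF.right g f hf.2⟩

variable [DecidableEq G]

theorem reg_single (g x : G) :
    reg G g (EuclideanSpace.single x (1 : ℝ)) = EuclideanSpace.single (g * x) 1 := by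
  ext h
  rw [reg_apply]
  simp only [PiLp.single_apply, inv_mul_eq_iff_eq_mul]

theorem rt_single (g x : G) :
    rt g (EuclideanSpace.single x (1 : ℝ)) = EuclideanSpace.single (x * g⁻¹) 1 := by
  ext h
  rw [rt_apply]
  simp only [PiLp.single_apply, eq_mul_inv_iff_mul_eq]

/-- The kernel of the projection. -/
noncomputable def ker (E : Submodule ℝ (EuclideanSpace ℝ G)) (g : G) : ℝ :=
  E.starProjection (EuclideanSpace.single 1 1) g

theorem proj_single (hE : TwoSided E) (x y : G) :
    E.starProjection (EuclideanSpace.single x 1) y = ker E (x⁻¹ * y) := by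
  have h : (EuclideanSpace.single x (1 : ℝ)) = reg G x (EuclideanSpace.single 1 1) := by
    rw [reg_single, mul_one]
  rw [h, proj_reg hE, reg_apply, ker]

theorem proj_single' (hE : TwoSided E) (x y : G) :
    E.starProjection (EuclideanSpace.single x 1) y = ker E (y * x⁻¹) := by
  have h : (EuclideanSpace.single x (1 : ℝ)) = rt x⁻¹ (EuclideanSpace.single 1 1) := by
    rw [rt_single, inv_inv, one_mul]
  rw [h, proj_rt hE, rt_apply, ker]

theorem ker_conj (hE : TwoSided E) (x h : G) : ker E (x * h * x⁻¹) = ker E h := by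
  have h1 := proj_single hE x (x * h)
  have h2 := proj_single' hE x (x * h)
  rw [inv_mul_cancel_left] at h1
  rw [← h1, h2]

omit [Group G] in
theorem inner_single (f : EuclideanSpace ℝ G) (x : G) :
    ⟪EuclideanSpace.single x (1 : ℝ), f⟫_ℝ = f x := by
  rw [EuclideanSpace.inner_single_left]; simp

theorem ker_one (E : Submodule ℝ (EuclideanSpace ℝ G)) :
    ker E 1 = ∑ g, ker E g ^ 2 := by
  have h1 : ‖E.starProjection (EuclideanSpace.single (1 : G) (1 : ℝ))‖ ^ 2 = ∑ g, ker E g ^ 2 := by
    rw [EuclideanSpace.norm_sq_eq]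
    simp [ker]
  rw [← h1, ← real_inner_self_eq_norm_sq]
  have h2 := Submodule.inner_starProjection_left_eq_right E (EuclideanSpace.single (1 : G) (1 : ℝ))
    (E.starProjection (EuclideanSpace.single (1 : G) (1 : ℝ)))
  rw [h2]
  have h3 : E.starProjection (E.starProjection (EuclideanSpace.single (1 : G) (1 : ℝ))) =
      E.starProjection (EuclideanSpace.single (1 : G) (1 : ℝ)) := by
    apply Submodule.starProjection_eq_self_iff.2
    exact Submodule.starProjection_apply_mem _ _
  rw [h3, inner_single, ker]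

theorem ker_one_nonneg (E : Submodule ℝ (EuclideanSpace ℝ G)) : 0 ≤ ker E 1 := by
  rw [ker_one]
  exact sum_nonneg fun g _ => sq_nonneg _

/-- The trace of a translation on `E`. -/
theorem trace_reg_proj (hE : TwoSided E) (h : G) :
    LinearMap.trace ℝ (EuclideanSpace ℝ G)
      ((reg G h ∘L E.starProjection : EuclideanSpace ℝ G →L[ℝ] EuclideanSpace ℝ G) :
        EuclideanSpace ℝ G →ₗ[ℝ] EuclideanSpace ℝ G) = Fintype.card G * ker E h⁻¹ := by
  rw [LinearMap.trace_eq_sum_inner _ (EuclideanSpace.basisFun G ℝ)]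
  have : ∀ x : G, ⟪(EuclideanSpace.basisFun G ℝ) x,
      ((reg G h ∘L E.starProjection : EuclideanSpace ℝ G →L[ℝ] EuclideanSpace ℝ G) :
        EuclideanSpace ℝ G →ₗ[ℝ] EuclideanSpace ℝ G) ((EuclideanSpace.basisFun G ℝ) x)⟫_ℝ =
      ker E h⁻¹ := by
    intro x
    rw [EuclideanSpace.basisFun_apply, inner_single, ContinuousLinearMap.coe_coe,
      ContinuousLinearMap.comp_apply, reg_apply, proj_single hE, ← ker_conj hE x⁻¹ h⁻¹, inv_inv,
      mul_assoc]
  rw [sum_congr rfl fun x _ => this x, sum_const, card_univ, nsmul_eq_mul]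

/-- The dimension of a two-sided ideal. -/
theorem finrank_eq (hE : TwoSided E) :
    (Module.finrank ℝ E : ℝ) = Fintype.card G * ker E 1 := by
  have h1 := trace_reg_proj hE 1
  rw [inv_one] at h1
  rw [← h1, map_one, ContinuousLinearMap.one_def, ContinuousLinearMap.id_comp]
  symm
  apply LinearMap.IsProj.trace
  exact ⟨fun x => Submodule.starProjection_apply_mem E x,
    fun x hx => Submodule.starProjection_eq_self_iff.2 hx⟩

theorem norm_proj_single_sq (hE : TwoSided E) (x : G) :
    ‖E.starProjection (EuclideanSpace.single x (1 : ℝ))‖ ^ 2 = ker E 1 := by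
  rw [← real_inner_self_eq_norm_sq]
  have h2 := Submodule.inner_starProjection_left_eq_right E (EuclideanSpace.single x (1 : ℝ))
    (E.starProjection (EuclideanSpace.single x (1 : ℝ)))
  rw [h2]
  have h3 : E.starProjection (E.starProjection (EuclideanSpace.single x (1 : ℝ))) =
      E.starProjection (EuclideanSpace.single x (1 : ℝ)) := by
    apply Submodule.starProjection_eq_self_iff.2
    exact Submodule.starProjection_apply_mem _ _
  rw [h3, inner_single, proj_single hE, inv_mul_cancel]

theorem abs_ker_le (hE : TwoSided E) (h : G) : |ker E h| ≤ ker E 1 := by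
  have h1 : ker E h = ⟪E.starProjection (EuclideanSpace.single h (1 : ℝ)),
      E.starProjection (EuclideanSpace.single 1 (1 : ℝ))⟫_ℝ := by
    rw [Submodule.inner_starProjection_left_eq_right]
    have h3 : E.starProjection (E.starProjection (EuclideanSpace.single (1 : G) (1 : ℝ))) =
        E.starProjection (EuclideanSpace.single (1 : G) (1 : ℝ)) := by
      apply Submodule.starProjection_eq_self_iff.2
      exact Submodule.starProjection_apply_mem _ _
    rw [h3, inner_single, ker]
  have h2 := abs_real_inner_le_norm (E.starProjection (EuclideanSpace.single h (1 : ℝ)))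
    (E.starProjection (EuclideanSpace.single (1 : G) (1 : ℝ)))
  rw [← h1] at h2
  have h4 := norm_proj_single_sq hE h
  have h5 := norm_proj_single_sq hE 1
  have h6 : ‖E.starProjection (EuclideanSpace.single h (1 : ℝ))‖ =
      ‖E.starProjection (EuclideanSpace.single (1 : G) (1 : ℝ))‖ := by
    rw [← h5] at h4
    exact (sq_eq_sq₀ (norm_nonneg _) (norm_nonneg _)).1 h4
  rw [h6, ← sq, h5] at h2
  exact h2

/-- The size of the centraliser. -/
def cent (h : G) : ℕ := (univ.filter fun x : G => x * h = h * x).card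

theorem card_fiber_le (h y : G) :
    (univ.filter fun x : G => x * h * x⁻¹ = y).card ≤ cent h := by
  rcases (univ.filter fun x : G => x * h * x⁻¹ = y).eq_empty_or_nonempty with h0 | ⟨x0, hx0⟩
  · rw [h0]; simp
  · rw [mem_filter] at hx0
    refine Finset.card_le_card_of_injOn (fun x => x0⁻¹ * x) ?_ ?_
    · intro x hx
      simp only [Finset.coe_filter, mem_univ, true_and, Set.mem_ofPred_eq] at hx ⊢
      have h1 : x * h * x⁻¹ = x0 * h * x0⁻¹ := by rw [hx, hx0.2]
      have h2 : x * h = x0 * h * x0⁻¹ * x := by rw [← h1]; group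
      calc x0⁻¹ * x * h = x0⁻¹ * (x * h) := by group
        _ = x0⁻¹ * (x0 * h * x0⁻¹ * x) := by rw [h2]
        _ = h * (x0⁻¹ * x) := by group
    · intro x _ x' _ hxx
      exact mul_left_cancel hxx

theorem ker_sq_le (hE : TwoSided E) (h : G) :
    Fintype.card G * ker E h ^ 2 ≤ cent h * ker E 1 := by
  have h1 : ∑ x : G, ker E (x * h * x⁻¹) ^ 2 = Fintype.card G * ker E h ^ 2 := by
    rw [sum_congr rfl fun x _ => by rw [ker_conj hE], sum_const, card_univ, nsmul_eq_mul]
  have h2 : ∑ x : G, ker E (x * h * x⁻¹) ^ 2 =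
      ∑ y : G, ((univ.filter fun x : G => x * h * x⁻¹ = y).card : ℝ) * ker E y ^ 2 := by
    rw [← Finset.sum_fiberwise univ (fun x : G => x * h * x⁻¹) (fun x => ker E (x * h * x⁻¹) ^ 2)]
    refine sum_congr rfl fun y _ => ?_
    rw [sum_congr rfl fun x hx => by rw [(mem_filter.1 hx).2], sum_const, nsmul_eq_mul]
  rw [← h1, h2, ker_one, mul_sum]
  refine sum_le_sum fun y _ => ?_
  exact mul_le_mul_of_nonneg_right (by exact_mod_cast card_fiber_le h y) (sq_nonneg _)

/-- The two bounds for the trace of a translation on a two-sided ideal. -/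
theorem abs_trace_le (hE : TwoSided E) (h : G) :
    |Fintype.card G * ker E h| ≤ Module.finrank ℝ E ∧
      (Fintype.card G * ker E h) ^ 2 ≤ Module.finrank ℝ E * cent h := by
  have hG : (0 : ℝ) ≤ Fintype.card G := Nat.cast_nonneg _
  rw [finrank_eq hE]
  constructor
  · rw [abs_mul, abs_of_nonneg hG]
    exact mul_le_mul_of_nonneg_left (abs_ker_le hE h) hG
  · have := mul_le_mul_of_nonneg_left (ker_sq_le hE h) hG
    nlinarith [this]

end Vale.Agent.P162.H372
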