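import Vale.Agent.P162.H372.Kernel

/-!
# P162, stage 2, part D: the multiplicity bound

`q` is a symmetric class function `≥ 0` on a finite group `G` and `Q = opr q` the convolution
operator. If `E` is a two-sided ideal with `⟪Q f, f⟫ ≥ s ‖f‖²` on `E`, then
`s^(2b) dim E ≤ (∑ h, (q*q)(h) w(h))^b` whenever `|C(h)| ≤ w(h)^b`, `b ≥ 2`.
-/

open Finset
open scoped InnerProductSpace
open Vale.Agent.P162 (conv)
open Vale.Agent.P162.H72 (reg reg_apply norm_reg opr)

namespace Vale.Agent.P162.H372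

section general
variable {V : Type*} [NormedAddCommGroup V] [InnerProductSpace ℝ V] [FiniteDimensional ℝ V]

/-- The trace of `A ∘ P_E` from an orthonormal basis of `E`. -/
theorem trace_comp_proj (E : Submodule ℝ V) {ι : Type*} [Fintype ι] (b : OrthonormalBasis ι ℝ E)
    (A : V →L[ℝ] V) :
    LinearMap.trace ℝ V ((A ∘L E.starProjection : V →L[ℝ] V) : V →ₗ[ℝ] V) =
      ∑ i, ⟪(b i : V), A (b i)⟫_ℝ := by
  have h1 : ((A ∘L E.starProjection : V →L[ℝ] V) : V →ₗ[ℝ] V) =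
      ((A : V →ₗ[ℝ] V) ∘ₗ E.subtype) ∘ₗ (E.orthogonalProjectionOnto : V →ₗ[ℝ] E) := by
    ext x
    rfl
  rw [h1, LinearMap.trace_comp_comm', LinearMap.trace_eq_sum_inner _ b]
  refine sum_congr rfl fun i _ => ?_
  exact Submodule.inner_orthogonalProjectionOnto_eq_of_mem_left _ _

end general

variable {G : Type*} [Group G] [Fintype G]

theorem opr_apply (μ : G → ℝ) (f : EuclideanSpace ℝ G) : opr μ f = ∑ g, μ g • reg G g f := by
  simp [opr]

theorem opr_apply' (μ : G → ℝ) (f : EuclideanSpace ℝ G) (h : G) :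
    opr μ f h = ∑ g, μ g * f (g⁻¹ * h) := by
  rw [opr_apply, WithLp.ofLp_sum, Finset.sum_apply]
  refine sum_congr rfl fun g _ => ?_
  rw [PiLp.smul_apply, reg_apply, smul_eq_mul]

theorem opr_mul (μ ν : G → ℝ) : opr μ * opr ν = opr (conv μ ν) := by
  ext f h
  show opr μ (opr ν f) h = _
  rw [opr_apply', opr_apply']
  calc ∑ g, μ g * opr ν f (g⁻¹ * h) = ∑ g, ∑ k, μ g * ν (g⁻¹ * k) * f (k⁻¹ * h) := by
        refine sum_congr rfl fun g _ => ?_
        rw [opr_apply', mul_sum]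
        refine Fintype.sum_equiv (Equiv.mulLeft g) _ _ fun k => ?_
        simp [mul_assoc]
    _ = ∑ k, (∑ g, μ g * ν (g⁻¹ * k)) * f (k⁻¹ * h) := by
        rw [sum_comm]
        exact sum_congr rfl fun k _ => by rw [sum_mul]
    _ = _ := rfl

/-- The standing hypotheses: a nonnegative symmetric class function. -/
structure Cls (q : G → ℝ) : Prop where
  nonneg : ∀ g, 0 ≤ q g
  inv : ∀ g, q g⁻¹ = q g
  conj : ∀ x g, q (x * g * x⁻¹) = q g

variable {q : G → ℝ}

theorem opr_mem {E : Submodule ℝ (EuclideanSpace ℝ G)} (hE : TwoSided E) (μ : G → ℝ)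
    (f : EuclideanSpace ℝ G) (hf : f ∈ E) : opr μ f ∈ E := by
  rw [opr_apply]
  exact Submodule.sum_mem _ fun g _ => Submodule.smul_mem _ _ (hE.left g f hf)

theorem opr_rt (μ : G → ℝ) (g : G) (f : EuclideanSpace ℝ G) :
    opr μ (rt g f) = rt g (opr μ f) := by
  rw [opr_apply, opr_apply, map_sum]
  refine sum_congr rfl fun x _ => ?_
  rw [map_smul]
  congr 1
  ext h
  rw [reg_apply, rt_apply, rt_apply, reg_apply, mul_assoc]

theorem opr_reg (hq : Cls q) (g : G) (f : EuclideanSpace ℝ G) :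
    opr q (reg G g f) = reg G g (opr q f) := by
  rw [opr_apply, opr_apply, map_sum]
  refine Fintype.sum_equiv (MulAut.conj g⁻¹).toEquiv _ _ fun x => ?_
  rw [map_smul]
  have h1 : (MulAut.conj g⁻¹).toEquiv x = g⁻¹ * x * g := by simp
  rw [h1]
  have h2 := hq.conj g⁻¹ x
  rw [inv_inv] at h2
  rw [h2]
  congr 1
  ext h
  simp only [reg_apply]
  group

theorem opr_symm (hq : Cls q) (f f' : EuclideanSpace ℝ G) :
    ⟪opr q f, f'⟫_ℝ = ⟪f, opr q f'⟫_ℝ := by
  rw [opr_apply, opr_apply, sum_inner, inner_sum]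
  refine Fintype.sum_equiv (Equiv.inv G) _ _ fun g => ?_
  rw [inner_smul_left, inner_smul_right, inner_reg, Equiv.inv_apply, hq.inv]
  simp

theorem conv_nonneg (hq : Cls q) (h : G) : 0 ≤ conv q q h :=
  sum_nonneg fun _ _ => mul_nonneg (hq.nonneg _) (hq.nonneg _)

theorem cent_inv [DecidableEq G] (h : G) : cent h⁻¹ = cent h := by
  unfold cent
  congr 1
  apply Finset.filter_congr
  intro x _
  constructor
  · intro h1
    have h2 : h * (x * h⁻¹) * h = h * (h⁻¹ * x) * h := by rw [h1]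
    simpa [mul_assoc] using h2.symm
  · intro h1
    have h2 : h⁻¹ * (x * h) * h⁻¹ = h⁻¹ * (h * x) * h⁻¹ := by rw [h1]
    simpa [mul_assoc] using h2.symm

/-- Part (D), first form. -/
theorem mult_le [DecidableEq G] (hq : Cls q) {E : Submodule ℝ (EuclideanSpace ℝ G)}
    (hE : TwoSided E) {s : ℝ} (hs : 0 ≤ s) (hsE : ∀ f ∈ E, s * ‖f‖ ≤ ‖opr q f‖)
    {κ : ℝ} (hκ : 0 < κ) (hκ2 : κ ≤ 1 / 2) {w : G → ℝ} (hw0 : ∀ h, 0 ≤ w h)
    (hw : ∀ h, (cent h : ℝ) ^ κ ≤ w h) :
    s ^ (2 / κ) * Module.finrank ℝ E ≤ (∑ h, conv q q h * w h) ^ (1 / κ) := by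
  set D : ℝ := ((Module.finrank ℝ E : ℕ) : ℝ) with hD
  set Z : ℝ := ∑ h, conv q q h * w h with hZ
  have hZ0 : 0 ≤ Z := sum_nonneg fun h _ => mul_nonneg (conv_nonneg hq h) (hw0 h)
  have hD0 : 0 ≤ D := Nat.cast_nonneg _
  -- trace of `Q² P_E`
  have h1 : s ^ 2 * D ≤ ∑ h, conv q q h * (D ^ (1 - κ) * w h) := by
    let bs := stdOrthonormalBasis ℝ E
    have t1 := trace_comp_proj E bs (opr q * opr q)
    have t2 : s ^ 2 * D ≤ ∑ i, ⟪(bs i : EuclideanSpace ℝ G), (opr q * opr q) (bs i)⟫_ℝ := by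
      have t3 : ∀ i, s ^ 2 ≤ ⟪(bs i : EuclideanSpace ℝ G), (opr q * opr q) (bs i)⟫_ℝ := by
        intro i
        have t4 : (opr q * opr q) (bs i : EuclideanSpace ℝ G) = opr q (opr q (bs i)) := rfl
        rw [t4, ← opr_symm hq, real_inner_self_eq_norm_sq]
        have t5 := hsE (bs i) (bs i).2
        have t6 : ‖(bs i : EuclideanSpace ℝ G)‖ = 1 := bs.orthonormal.1 i
        rw [t6, mul_one] at t5
        exact pow_le_pow_left₀ hs t5 2
      calc s ^ 2 * D = ∑ _i : Fin (Module.finrank ℝ E), s ^ 2 := by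
            rw [sum_const, card_univ, Fintype.card_fin, nsmul_eq_mul, mul_comm]
        _ ≤ _ := sum_le_sum fun i _ => t3 i
    rw [← t1, opr_mul] at t2
    refine t2.trans ?_
    have t7 : LinearMap.trace ℝ (EuclideanSpace ℝ G)
        ((opr (conv q q) ∘L E.starProjection : EuclideanSpace ℝ G →L[ℝ] EuclideanSpace ℝ G) :
          EuclideanSpace ℝ G →ₗ[ℝ] EuclideanSpace ℝ G) =
        ∑ h, conv q q h * (Fintype.card G * ker E h⁻¹) := by
      have t8 : ((opr (conv q q) ∘L E.starProjection :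
          EuclideanSpace ℝ G →L[ℝ] EuclideanSpace ℝ G) :
          EuclideanSpace ℝ G →ₗ[ℝ] EuclideanSpace ℝ G) = ∑ h, conv q q h •
          ((reg G h ∘L E.starProjection : EuclideanSpace ℝ G →L[ℝ] EuclideanSpace ℝ G) :
          EuclideanSpace ℝ G →ₗ[ℝ] EuclideanSpace ℝ G) := by
        ext x : 1
        simp [opr_apply, LinearMap.sum_apply]
      rw [t8, map_sum]
      refine sum_congr rfl fun h _ => ?_
      rw [map_smul, trace_reg_proj hE, smul_eq_mul]
    rw [t7]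
    refine sum_le_sum fun h _ => mul_le_mul_of_nonneg_left ?_ (conv_nonneg hq h)
    obtain ⟨u1, u2⟩ := abs_trace_le hE h⁻¹
    rw [cent_inv, ← hD] at u2
    rw [← hD] at u1
    set x : ℝ := |Fintype.card G * ker E h⁻¹| with hx
    have hx0 : 0 ≤ x := abs_nonneg _
    have hc0 : (0 : ℝ) ≤ cent h := Nat.cast_nonneg _
    have u3 : x ^ 2 ≤ D * cent h := by rw [hx, sq_abs]; exact u2
    have u4 : x ≤ D ^ (1 - κ) * (cent h : ℝ) ^ κ := by
      calc x = x ^ ((1 - 2 * κ) + 2 * κ) := by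
            rw [show (1 - 2 * κ) + 2 * κ = 1 by ring, Real.rpow_one]
        _ = x ^ (1 - 2 * κ) * (x ^ 2) ^ κ := by
            rw [Real.rpow_add_of_nonneg hx0 (by linarith) (by linarith), Real.rpow_mul hx0]
            norm_num
        _ ≤ D ^ (1 - 2 * κ) * (D * cent h) ^ κ :=
            mul_le_mul (Real.rpow_le_rpow hx0 u1 (by linarith))
              (Real.rpow_le_rpow (sq_nonneg _) u3 hκ.le) (Real.rpow_nonneg (sq_nonneg _) _)
              (Real.rpow_nonneg hD0 _)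
        _ = D ^ (1 - κ) * (cent h : ℝ) ^ κ := by
            rw [Real.mul_rpow hD0 hc0, ← mul_assoc,
              ← Real.rpow_add_of_nonneg hD0 (by linarith) hκ.le]
            congr 2
            ring
    exact (le_abs_self _).trans (u4.trans (mul_le_mul_of_nonneg_left (hw h)
      (Real.rpow_nonneg hD0 _)))
  have h2 : s ^ 2 * D ≤ D ^ (1 - κ) * Z := by
    refine h1.trans (le_of_eq ?_)
    rw [hZ, mul_sum]
    exact sum_congr rfl fun h _ => by ring
  rcases hD0.eq_or_lt with h0 | h0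
  · rw [← h0, mul_zero]
    exact Real.rpow_nonneg hZ0 _
  · have h3 : s ^ 2 * D ^ κ ≤ Z := by
      have h4 : D ^ (1 - κ) * (s ^ 2 * D ^ κ) ≤ D ^ (1 - κ) * Z := by
        calc D ^ (1 - κ) * (s ^ 2 * D ^ κ) = s ^ 2 * (D ^ (1 - κ) * D ^ κ) := by ring
          _ = s ^ 2 * D := by
              rw [← Real.rpow_add h0, sub_add_cancel, Real.rpow_one]
          _ ≤ _ := h2
      exact le_of_mul_le_mul_left h4 (Real.rpow_pos_of_pos h0 _)
    have h5 := Real.rpow_le_rpow (mul_nonneg (sq_nonneg s) (Real.rpow_nonneg hD0 κ)) h3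
      (show 0 ≤ 1 / κ by positivity)
    rw [Real.mul_rpow (sq_nonneg _) (Real.rpow_nonneg hD0 _), ← Real.rpow_mul hD0,
      mul_one_div_cancel hκ.ne', Real.rpow_one, ← Real.rpow_natCast, ← Real.rpow_mul hs] at h5
    have h6 : ((2 : ℕ) : ℝ) * (1 / κ) = 2 / κ := by push_cast; ring
    rwa [h6] at h5

end Vale.Agent.P162.H372
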